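import Vale.Agent.Lib.P335.Poincare
import Vale.Agent.Lib.P335.JohnsonStmt
import Vale.Agent.Lib.P335.ThreeRow
import Vale.Agent.Lib.P335.Mixing

/-!
The switch chain on labeled simple graphs with a given degree sequence mixes in at most `n ^ 6` steps.
-/

namespace Vale.Agent.Results.P335.A_main

open Vale.Agent.Lib.P335

/-- For every `n ≥ 4` and every graphical degree vector `d` on `Fin n`, from every start the law of
the switch chain after any `t ≥ n ^ 6` steps is within `1 / 4` of uniform in total variation, and so
the mixing time is at most `n ^ 6`. -/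
theorem result (n : ℕ) (hn : 4 ≤ n) (d : Fin n → ℕ) (hd : (Om d).Nonempty) :
    (∀ x ∈ Om d, ∀ t : ℕ, n ^ 6 ≤ t → tvToUniform d ((switchKernel n ^ t) x) ≤ 1 / 4) ∧
      tmix d ≤ n ^ 6 := by
  have hmix := mixing_of_poincare hn d hd (fun f =>
    poincare_of_parts d f (johnsonIneqStmt n) (johnsonGapStmt n)
      (fun g {_ _ _} huv huw hvw =>
        triple_bound_of_threeRow (threeRow (Option (Fin n))) d g huv huw hvw))
  refine ⟨fun x hx t ht => hmix x hx t ht, ?_⟩
  exact Nat.sInf_le (fun x hx => hmix x hx (n ^ 6) le_rfl)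

end Vale.Agent.Results.P335.A_main
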